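import Vale.Agent.P088.R2.H354.Spec3

/-!
# P088, stage 3: the local theorem on `EuclideanSpace ℝ (Fin n)`

`StpE`, `Core3E` are `Stp`, `RowCORE3` for balls of the Euclidean space with arbitrary centre, with
the operator in divergence form.
-/

open MeasureTheory Set
open scoped ContDiff Matrix

noncomputable section

namespace Vale.Agent.P088.R2.H935.Cv

/-- The Euclidean space. -/
abbrev EE (n : ℕ) : Type := EuclideanSpace ℝ (Fin n)

variable {n : ℕ}

/-- `∂_i f` on the Euclidean space (two-sided). -/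
def pe (i : Fin n) (f : EE n → ℝ) (x : EE n) : ℝ := fderiv ℝ f x (EuclideanSpace.single i (1 : ℝ))

/-- `∑_j ∂_j (∑_k s_jk ∂_k f)`. -/
def LE (s : EE n → Matrix (Fin n) (Fin n) ℝ) (f : EE n → ℝ) (x : EE n) : ℝ :=
  ∑ j, pe j (fun y => ∑ k, s y j k * pe k f y) x

/-- `HY.T3.Stp` on the Euclidean space. -/
def StpE (D G : Set (EE n)) (s₁ s₂ : EE n → Matrix (Fin n) (Fin n) ℝ) : Prop :=
  ∃ C₀ : ℝ, 0 ≤ C₀ ∧ ∀ (d : ℕ) (f h₁ h₂ : Fin d → EE n → ℝ),
    (∀ q, ContDiff ℝ ∞ (f q)) → (∀ q, HasCompactSupport (f q)) → (∀ q, tsupport (f q) ⊆ D) →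
    (∀ q, ContDiff ℝ ∞ (h₁ q)) → (∀ q, HasCompactSupport (h₁ q)) →
    (∀ q, tsupport (h₁ q) ⊆ G ∩ D) →
    (∀ q, ContDiff ℝ ∞ (h₂ q)) → (∀ q, HasCompactSupport (h₂ q)) → (∀ q, tsupport (h₂ q) ⊆ D) →
    (∀ q, ∀ x ∈ D, LE s₁ (f q) x = h₁ q x + h₂ q x) → ∀ ε : ℝ, 0 < ε →
    ∃ (w : Fin d → EE n → ℝ) (dv : Fin d → Fin n → EE n → ℝ),
      (∀ q, ContDiffOn ℝ 1 (w q) D) ∧ (∀ q, ∀ x ∈ G ∩ D, w q x = 0) ∧
      (∀ q, MemLp (w q) 2 (volume.restrict D)) ∧
      (∀ q i, MemLp (pe i (w q)) 2 (volume.restrict D)) ∧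
      (∀ q i, MemLp (dv q i) 2 (volume.restrict (D \ G))) ∧
      (∀ q, ∀ φ : EE n → ℝ, ContDiff ℝ ∞ φ → HasCompactSupport φ → tsupport φ ⊆ D →
        (∫ x in D, ∑ i, ∑ j, s₂ x i j * (pe i (w q) x * pe j φ x)) =
          ∫ x in D \ G, ∑ i, ∑ j, (s₁ x i j - s₂ x i j) * (dv q i x * pe j φ x)) ∧
      ∀ c : Fin d → ℝ,
        (∫ x in D \ G, ∑ i, (∑ q, c q * (dv q i x - pe i (f q) x)) ^ 2) ≤
          C₀ * (∫ x in D, (∑ q, c q * h₂ q x) ^ 2) + ε * (∑ q, c q ^ 2) ∧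
        (∫ x in D, ((∑ q, c q * w q x) ^ 2 + ∑ i, (∑ q, c q * pe i (w q) x) ^ 2)) ≤
          C₀ * ((∫ x in D \ G, ((∑ q, c q * f q x) ^ 2 + ∑ i, (∑ q, c q * pe i (f q) x) ^ 2)) +
            (∫ x in D, (∑ q, c q * h₂ q x) ^ 2)) + ε * (∑ q, c q ^ 2)

/-- **CORE3** on the Euclidean space: `z` is a point of the boundary of the ball `B(a, r)` of
matched points. -/
def Core3E : Prop := ∀ n : ℕ, 3 ≤ n → ∀ (s₁ s₂ : EE n → Matrix (Fin n) (Fin n) ℝ) (z a : EE n)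
  (R r : ℝ) (G : Set (EE n)), 0 < R → 0 < r → dist a z = r → IsOpen G →
  Metric.ball a r ∩ Metric.ball z R ⊆ G →
  (∀ i j, ContDiffOn ℝ ∞ (fun x => s₁ x i j) (Metric.ball z R)) →
  (∀ i j, ContDiffOn ℝ ∞ (fun x => s₂ x i j) (Metric.ball z R)) →
  (∀ x ∈ Metric.ball z R, (s₁ x).PosDef) → (∀ x ∈ Metric.ball z R, (s₂ x).PosDef) →
  (∀ x ∈ Metric.ball z R, ∀ j, ∑ i, pe i (fun y => s₁ y i j) x = 0) →
  (∀ x ∈ Metric.ball z R, ∀ j, ∑ i, pe i (fun y => s₂ y i j) x = 0) →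
  (∀ x ∈ G ∩ Metric.ball z R, s₂ x = s₁ x) → StpE (Metric.ball z R) G s₁ s₂ →
  ∃ δ : ℝ, 0 < δ ∧ ∀ x ∈ Metric.ball z δ, s₂ x = s₁ x

/-! ## The change of the model space -/

open Vale.Agent.P088.LR

/-- `y ↦ y + z` from `V n` to the Euclidean space. -/
def A (z : EE n) (y : V n) : EE n := WithLp.toLp 2 y + z

/-- The inverse of `A`. -/
def B (z : EE n) (x : EE n) : V n := WithLp.ofLp (x - z)

theorem A_B (z x : EE n) : A z (B z x) = x := by simp [A, B]

theorem B_A (z : EE n) (y : V n) : B z (A z y) = y := by simp [A, B]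

/-- The linear part of `A`. -/
def T : V n ≃L[ℝ] EE n := (PiLp.continuousLinearEquiv 2 ℝ (fun _ : Fin n => ℝ)).symm

theorem T_apply (y : V n) : (T y : EE n) = WithLp.toLp 2 y := rfl

theorem A_eq (z : EE n) : A z = fun y => T y + z := rfl

theorem B_eq (z : EE n) : B z = fun x => T.symm (x - z) := rfl

theorem A_sm (z : EE n) {m : WithTop ℕ∞} : ContDiff ℝ m (A z) := by
  rw [A_eq]
  exact (T (n := n)).contDiff.add contDiff_const

theorem B_sm (z : EE n) {m : WithTop ℕ∞} : ContDiff ℝ m (B z) := by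
  rw [B_eq]
  exact (T (n := n)).symm.contDiff.comp (contDiff_id.sub contDiff_const)

/-- `A` as a homeomorphism. -/
def Ah (z : EE n) : V n ≃ₜ EE n where
  toFun := A z
  invFun := B z
  left_inv := B_A z
  right_inv := A_B z
  continuous_toFun := (A_sm z (m := 0)).continuous
  continuous_invFun := (B_sm z (m := 0)).continuous

theorem A_mp (z : EE n) : MeasurePreserving (A z) := by
  have h1 := PiLp.volume_preserving_toLp (Fin n)
  have h2 := measurePreserving_add_right (volume : Measure (EE n)) z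
  exact h2.comp h1

theorem A_me (z : EE n) : MeasurableEmbedding (A z) := (Ah z).measurableEmbedding

theorem pd_A (z : EE n) (f : EE n → ℝ) (i : Fin n) (y : V n) :
    pd i (fun y => f (A z y)) y = pe i f (A z y) := by
  unfold pd pe
  have h1 : (fun y => f (A z y)) = (fun x => f (x + z)) ∘ (T : V n ≃L[ℝ] EE n) := rfl
  rw [h1, ContinuousLinearEquiv.comp_right_fderiv, fderiv_comp_add_right]
  rfl

theorem pe_B (z : EE n) (f : V n → ℝ) (i : Fin n) (x : EE n) :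
    pe i (fun x => f (B z x)) x = pd i f (B z x) := by
  have h := pd_A z (fun x => f (B z x)) i (B z x)
  simp only [A_B, B_A] at h
  exact h.symm

theorem int_A (z : EE n) (S : Set (EE n)) (F : EE n → ℝ) :
    ∫ y in A z ⁻¹' S, F (A z y) = ∫ x in S, F x :=
  (A_mp z).setIntegral_preimage_emb (A_me z) F S

theorem mem_A {z : EE n} {S : Set (EE n)} (hS : MeasurableSet S) {F : EE n → ℝ}
    (h : MemLp F 2 (volume.restrict S)) :
    MemLp (fun y => F (A z y)) 2 (volume.restrict (A z ⁻¹' S)) :=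
  h.comp_measurePreserving ((A_mp z).restrict_preimage hS)

theorem nrm_toLp (y : V n) : ‖(WithLp.toLp 2 y : EE n)‖ ^ 2 = HY.sq y := by
  rw [EuclideanSpace.norm_sq_eq]
  unfold HY.sq
  exact Finset.sum_congr rfl fun i _ => by rw [Real.norm_eq_abs, sq_abs]

theorem pre_ball (z c : EE n) {ρ : ℝ} (hρ : 0 < ρ) :
    A z ⁻¹' Metric.ball c ρ = HY.T3.Eb (B z c) ρ := by
  ext y
  have h1 : dist (A z y) c ^ 2 = HY.sq (y - B z c) := by
    rw [dist_eq_norm, ← nrm_toLp]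
    have h2 : A z y - c = WithLp.toLp 2 (y - B z c) := by
      have h3 : (WithLp.toLp 2 (B z c) : EE n) = c - z := rfl
      rw [WithLp.toLp_sub, h3]
      unfold A
      abel
    rw [h2]
  constructor
  · intro h
    have h2 : dist (A z y) c < ρ := h
    show HY.sq (y - B z c) < ρ ^ 2
    rw [← h1]
    exact pow_lt_pow_left₀ h2 dist_nonneg (by norm_num)
  · intro h
    have h2 : HY.sq (y - B z c) < ρ ^ 2 := h
    rw [← h1] at h2
    show dist (A z y) c < ρ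
    exact lt_of_pow_lt_pow_left₀ 2 hρ.le h2

theorem B_self (z : EE n) : B z z = 0 := by simp [B]

end Vale.Agent.P088.R2.H935.Cv
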