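import Vale.Agent.P088.R2.H935.S.Conv3
import Vale.Agent.P088.R2.H850.K1

/-!
# P088, stage 3: real models on a subset of the open half space in terms of `pe`, `LE`
-/

open MeasureTheory Set Filter Topology
open scoped ContDiff Matrix

noncomputable section

namespace Vale.Agent.P088.R2.H935.Cv

open Vale.Agent.P088.EYM Vale.Agent.P088.R2.H509.S3
open Vale.Agent.P088.R2.H850 (sgE sgE_eq sgE_smooth)

variable {n : ℕ} [NeZero n] {D : Set (E n)} {W : Model n 1} {ρ : E n → ℝ}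

theorem open_of (hR : RelOpen D) (hH : D ⊆ Ho n) : IsOpen D := by
  obtain ⟨O, hO, rfl⟩ := hR
  have : O ∩ Hs n = O ∩ Ho n := by
    ext x
    constructor
    · intro hx
      exact ⟨hx.1, hH hx⟩
    · intro hx
      exact ⟨hx.1, le_of_lt (show (0 : ℝ) < x 0 from hx.2)⟩
  rw [this]
  exact hO.inter isOpen_Ho

/-- the two operators agree -/
theorem dS_LE (hH : D ⊆ Ho n) (h : RM W ρ D) (f : E n → ℝ) {x : E n} (hx : x ∈ D) :
    dS W.g ρ f x = LE (sgE W.toLD) f x := by
  have hD := open_of h.rel hH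
  unfold dS LE
  refine Finset.sum_congr rfl fun j _ => ?_
  rw [pd_pe (hH hx)]
  refine pe_congr ?_ j
  filter_upwards [hD.mem_nhds hx] with y hy
  unfold fs
  exact Finset.sum_congr rfl fun k _ => by rw [sgE_eq h hy, pd_pe (hH hy)]

/-- the one-sided and the two-sided flux -/
theorem fs_pe (hH : D ⊆ Ho n) (h : RM W ρ D) (f : E n → ℝ) (j : Fin n) {x : E n} (hx : x ∈ D) :
    fs W.g ρ f j x = ∑ k, sgE W.toLD x j k * pe k f x := by
  unfold fs
  exact Finset.sum_congr rfl fun k _ => by rw [sgE_eq h hx, pd_pe (hH hx)]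

theorem sgE_div (hH : D ⊆ Ho n) (h : RM W ρ D) {x : E n} (hx : x ∈ D) (k : Fin n) :
    ∑ j, pe j (fun y => sgE W.toLD y j k) x = 0 := by
  have hD := open_of h.rel hH
  rw [← h.div_zero k hx]
  refine Finset.sum_congr rfl fun j _ => ?_
  rw [pd_pe (hH hx)]
  refine pe_congr ?_ j
  filter_upwards [hD.mem_nhds hx] with y hy using sgE_eq h hy j k

theorem sgE_sm (h : RM W ρ D) (j k : Fin n) :
    ContDiffOn ℝ ∞ (fun x => sgE W.toLD x j k) D := sgE_smooth h.mod.ok j k

theorem sgE_pos (h : RM W ρ D) {x : E n} (hx : x ∈ D) : (sgE W.toLD x).PosDef := by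
  have h1 := h.mod.ok.g_pos x hx
  have h2 : sgE W.toLD x = (ρ x ^ 2 * √(W.g x).det) • (W.g x)⁻¹ := by
    unfold sgE
    rw [h.h x hx, Vale.Agent.P088.R2.H850.trE_one_smul]
  rw [h2]
  have hp := h.pos x hx
  have hd : 0 < √(W.g x).det := Real.sqrt_pos.2 h1.det_pos
  exact h1.inv.smul (by positivity)

theorem sgE_symm (h : RM W ρ D) {x : E n} (hx : x ∈ D) : (sgE W.toLD x).IsSymm := by
  have h1 := (sgE_pos h hx).isHermitian
  ext i j
  have h2 := congrFun (congrFun h1 i) j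
  rw [Matrix.conjTranspose_apply] at h2
  simpa using h2

/-- `LE` in terms of the operator of the model -/
theorem lop_LE (hH : D ⊆ Ho n) (h : RM W ρ D) {f : E n → ℝ} (hf : ContDiffOn ℝ ∞ f D) {x : E n}
    (hx : x ∈ D) : Lop W.toLD (cf f) x = io (LE (sgE W.toLD) f x / ρ x ^ 2) := by
  rw [h.lop_dS hf hx, dS_LE hH h f hx]

/-- real solutions and `LE` -/
theorem LE_zero (hH : D ⊆ Ho n) (h : RM W ρ D) {f : E n → ℝ} (hf : ContDiffOn ℝ ∞ f D)
    (hs : Sol W.toLD D (cf f)) {x : E n} (hx : x ∈ D) : LE (sgE W.toLD) f x = 0 := by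
  rw [← dS_LE hH h f hx]
  exact h.dS_zero hf hs hx

end Vale.Agent.P088.R2.H935.Cv
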