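import Vale.Agent.P088.R2.H935.S.Weak

/-!
# P088, stage 3: the step `StpE` from the transfer of solutions
-/

open MeasureTheory Set Filter Topology
open scoped ContDiff Matrix

noncomputable section

namespace Vale.Agent.P088.R2.H935.Cv

variable {n : ℕ}

/-- The output of the transfer (`T3.Set3.step3`), in terms of `pe` and `LE`. -/
def Out3 (z : EE n) (r r' : ℝ) (D G : Set (EE n)) (s₁ s₂ : EE n → Matrix (Fin n) (Fin n) ℝ) :
    Prop :=
  ∃ C₀ : ℝ, 0 ≤ C₀ ∧ ∀ (d : ℕ) (f h₁ h₂ : Fin d → EE n → ℝ), (∀ q, ContDiff ℝ ∞ (f q)) →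
    (∀ q, HasCompactSupport (f q)) → (∀ q, tsupport (f q) ⊆ D) → (∀ q, Continuous (h₁ q)) →
    (∀ q, HasCompactSupport (h₁ q)) →
    (∀ q, tsupport (h₁ q) ⊆ Metric.closedBall z r' ∩ G) →
    (∀ q, Continuous (h₂ q)) → (∀ q, HasCompactSupport (h₂ q)) →
    (∀ q, ∀ x ∈ Metric.ball z r, LE s₁ (f q) x = h₁ q x + h₂ q x) → ∀ ε : ℝ, 0 < ε →
    ∃ v w : Fin d → EE n → ℝ, (∀ q, ContDiffOn ℝ ∞ (v q) (Metric.ball z r)) ∧
      (∀ q, ContDiffOn ℝ ∞ (w q) (Metric.ball z r)) ∧
      (∀ q, ∀ x ∈ Metric.ball z r, LE s₁ (v q) x = 0) ∧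
      (∀ q, ∀ x ∈ Metric.ball z r, LE s₂ (fun x => v q x + w q x) x = 0) ∧
      (∀ q, ∀ x ∈ G, w q x = 0) ∧ ∀ c : Fin d → ℝ,
        (∫ x in Metric.ball z r' \ G, ((∑ q, c q * (f q x - v q x)) ^ 2 +
          ∑ i, (∑ q, c q * (pe i (f q) x - pe i (v q) x)) ^ 2)) ≤
          C₀ * (∫ x, (∑ q, c q * h₂ q x) ^ 2) + ε * (∑ q, c q ^ 2) ∧
        (∫ x in Metric.ball z r', ((∑ q, c q * w q x) ^ 2 +
          ∑ i, (∑ q, c q * pe i (w q) x) ^ 2)) ≤
          C₀ * ((∫ x in D \ G, ((∑ q, c q * f q x) ^ 2 + ∑ i, (∑ q, c q * pe i (f q) x) ^ 2)) +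
            (∫ x, (∑ q, c q * h₂ q x) ^ 2)) + ε * (∑ q, c q ^ 2)

theorem LE_off {s : EE n → Matrix (Fin n) (Fin n) ℝ} {f : EE n → ℝ} {x : EE n}
    (hx : x ∉ tsupport f) : LE s f x = 0 := by
  unfold LE
  refine Finset.sum_eq_zero fun j _ => ?_
  have h1 : (fun y => ∑ k, s y j k * pe k f y) =ᶠ[𝓝 x] fun _ => (0 : ℝ) := by
    filter_upwards [(isClosed_tsupport f).isOpen_compl.mem_nhds hx] with y hy
    exact Finset.sum_eq_zero fun k _ => by rw [pe_off hy k, mul_zero]
  unfold pe at h1 ⊢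
  rw [h1.fderiv_eq]
  simp

theorem memLp_of_ball {z y₀ : EE n} {r R : ℝ} (hs : Metric.closedBall y₀ R ⊆ Metric.ball z r)
    {F : EE n → ℝ} (hF : ContinuousOn F (Metric.ball z r)) {S : Set (EE n)}
    (hS : S ⊆ Metric.closedBall y₀ R) : MemLp F 2 (volume.restrict S) := by
  have h1 : MemLp F 2 (volume.restrict (Metric.closedBall y₀ R)) := by
    have hc : ContinuousOn F (Metric.closedBall y₀ R) := hF.mono hs
    rw [memLp_two_iff_integrable_sq (hc.aestronglyMeasurable Metric.isClosed_closedBall.measurableSet)]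
    exact ContinuousOn.integrableOn_compact (isCompact_closedBall _ _) (hc.pow 2)
  exact h1.mono_measure (Measure.restrict_mono hS le_rfl)

theorem asm {z y₀ : EE n} {r r' R : ℝ} (_hr' : 0 < r') (hrr : r' < r) (_hR : 0 < R)
    (hs : Metric.closedBall y₀ R ⊆ Metric.ball z r') {G : Set (EE n)} (hG : IsOpen G)
    (_hGs : G ⊆ Metric.ball z r) {s₁ s₂ : EE n → Matrix (Fin n) (Fin n) ℝ}
    (h1 : ∀ i j, ContDiffOn ℝ ∞ (fun x => s₁ x i j) (Metric.ball z r))
    (h2 : ∀ i j, ContDiffOn ℝ ∞ (fun x => s₂ x i j) (Metric.ball z r))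
    (y1 : ∀ x ∈ Metric.ball z r, (s₁ x).IsSymm) (y2 : ∀ x ∈ Metric.ball z r, (s₂ x).IsSymm)
    (he : ∀ x ∈ G, s₂ x = s₁ x) (h : Out3 z r r' (Metric.ball y₀ R) G s₁ s₂) :
    StpE (Metric.ball y₀ R) G s₁ s₂ := by
  obtain ⟨C₀, hC₀, h⟩ := h
  set D : Set (EE n) := Metric.ball y₀ R with hDdef
  have hDc : D ⊆ Metric.closedBall y₀ R := Metric.ball_subset_closedBall
  have hD' : D ⊆ Metric.ball z r' := hDc.trans hs
  have hbb : Metric.ball z r' ⊆ Metric.ball z r := Metric.ball_subset_ball hrr.le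
  have hcb : Metric.closedBall z r' ⊆ Metric.ball z r := Metric.closedBall_subset_ball hrr
  have hDr : D ⊆ Metric.ball z r := hD'.trans hbb
  have hDo : IsOpen D := Metric.isOpen_ball
  have hBo : IsOpen (Metric.ball z r) := Metric.isOpen_ball
  have hsr : Metric.closedBall y₀ R ⊆ Metric.ball z r := hs.trans hbb
  refine ⟨C₀, hC₀, ?_⟩
  intro d f h₁ h₂ hf1 hf2 hf3 ha1 ha2 ha3 hb1 hb2 hb3 heq ε hε
  obtain ⟨v, w, c1, c2, c3, c4, c5, c6⟩ := h d f h₁ h₂ hf1 hf2 hf3 (fun q => (ha1 q).continuous) ha2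
    (fun q x hx => ⟨Metric.ball_subset_closedBall (hD' (ha3 q hx).2), (ha3 q hx).1⟩)
    (fun q => (hb1 q).continuous) hb2 (fun q x hx => by
      by_cases hxD : x ∈ D
      · exact heq q x hxD
      · rw [LE_off fun hh => hxD (hf3 q hh),
          image_eq_zero_of_notMem_tsupport fun hh => hxD (ha3 q hh).2,
          image_eq_zero_of_notMem_tsupport fun hh => hxD (hb3 q hh), add_zero]) ε hε
  have hpv : ∀ q i, ContinuousOn (pe i (v q)) (Metric.ball z r) := fun q i =>
    (pe_smo hBo (c1 q) i).continuousOn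
  have hpw : ∀ q i, ContinuousOn (pe i (w q)) (Metric.ball z r) := fun q i =>
    (pe_smo hBo (c2 q) i).continuousOn
  have hpf : ∀ q i, Continuous (pe i (f q)) := fun q i => pe_cont (hf1 q) i
  have hh2 : ∀ c : Fin d → ℝ, (∫ x, (∑ q, c q * h₂ q x) ^ 2) =
      ∫ x in D, (∑ q, c q * h₂ q x) ^ 2 := by
    intro c
    symm
    refine setIntegral_eq_integral_of_forall_compl_eq_zero fun x hx => ?_
    have : ∑ q, c q * h₂ q x = 0 := Finset.sum_eq_zero fun q _ => by
      rw [image_eq_zero_of_notMem_tsupport fun hh => hx (hb3 q hh), mul_zero]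
    rw [this]
    norm_num
  refine ⟨w, fun q i => pe i (v q), fun q => ((c2 q).mono hDr).of_le (by simp),
    fun q x hx => c5 q x hx.1, fun q => memLp_of_ball hsr (c2 q).continuousOn hDc,
    fun q i => memLp_of_ball hsr (hpw q i) hDc,
    fun q i => memLp_of_ball hsr (hpv q i) (sdiff_subset.trans hDc), fun q φ hφ1 hφ2 hφ3 => ?_,
    fun c => ?_⟩
  · exact weak_eq hDo hG (fun i j => (h1 i j).mono hDr) (fun i j => (h2 i j).mono hDr)
      (fun x hx => y1 x (hDr hx)) (fun x hx => y2 x (hDr hx)) (fun x hx => he x hx.1)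
      ((c1 q).mono hDr) ((c2 q).mono hDr) (fun x hx => c3 q x (hDr hx))
      (fun x hx => c4 q x (hDr hx)) hφ1 hφ2 hφ3
  · obtain ⟨e1, e2⟩ := c6 c
    rw [hh2 c] at e1 e2
    constructor
    · refine le_trans ?_ e1
      have hcont : ContinuousOn (fun x => (∑ q, c q * (f q x - v q x)) ^ 2 +
          ∑ i, (∑ q, c q * (pe i (f q) x - pe i (v q) x)) ^ 2) (Metric.ball z r) := by
        refine ContinuousOn.add ?_ ?_
        · refine (continuousOn_finsetSum _ fun q _ => continuousOn_const.mul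
            (((hf1 q).continuous.continuousOn).sub (c1 q).continuousOn)).pow 2
        · exact continuousOn_finsetSum _ fun i _ => (continuousOn_finsetSum _ fun q _ =>
            continuousOn_const.mul ((hpf q i).continuousOn.sub (hpv q i))).pow 2
      have hint : IntegrableOn (fun x => (∑ q, c q * (f q x - v q x)) ^ 2 +
          ∑ i, (∑ q, c q * (pe i (f q) x - pe i (v q) x)) ^ 2) (Metric.ball z r' \ G) :=
        (ContinuousOn.integrableOn_compact (isCompact_closedBall z r') (hcont.mono hcb)).mono_set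
          (sdiff_subset.trans Metric.ball_subset_closedBall)
      have hsub : D \ G ⊆ Metric.ball z r' \ G := sdiff_subset_sdiff_left hD'
      have hmono := setIntegral_mono_set hint (Eventually.of_forall fun x => by positivity)
        hsub.eventuallyLE
      refine le_trans ?_ hmono
      refine setIntegral_mono_on ?_ (hint.mono_set hsub) (hDo.measurableSet.diff hG.measurableSet)
        fun x _ => ?_
      · have hc2 : ContinuousOn (fun x => ∑ i, (∑ q, c q * (pe i (v q) x - pe i (f q) x)) ^ 2)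
            (Metric.ball z r) := continuousOn_finsetSum _ fun i _ =>
          (continuousOn_finsetSum _ fun q _ =>
            continuousOn_const.mul ((hpv q i).sub (hpf q i).continuousOn)).pow 2
        exact (ContinuousOn.integrableOn_compact (isCompact_closedBall z r') (hc2.mono hcb)).mono_set
          ((sdiff_subset.trans hD').trans Metric.ball_subset_closedBall)
      · have e3 : ∀ i, (∑ q, c q * (pe i (v q) x - pe i (f q) x)) ^ 2 =
            (∑ q, c q * (pe i (f q) x - pe i (v q) x)) ^ 2 := by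
          intro i
          rw [← neg_sq, ← Finset.sum_neg_distrib]
          congr 1
          exact Finset.sum_congr rfl fun q _ => by ring
        simp only [e3]
        nlinarith [sq_nonneg (∑ q, c q * (f q x - v q x))]
    · refine le_trans ?_ e2
      have hcont : ContinuousOn (fun x => (∑ q, c q * w q x) ^ 2 +
          ∑ i, (∑ q, c q * pe i (w q) x) ^ 2) (Metric.ball z r) := by
        refine ContinuousOn.add ?_ ?_
        · exact (continuousOn_finsetSum _ fun q _ => continuousOn_const.mul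
            (c2 q).continuousOn).pow 2
        · exact continuousOn_finsetSum _ fun i _ => (continuousOn_finsetSum _ fun q _ =>
            continuousOn_const.mul (hpw q i)).pow 2
      have hint : IntegrableOn (fun x => (∑ q, c q * w q x) ^ 2 +
          ∑ i, (∑ q, c q * pe i (w q) x) ^ 2) (Metric.ball z r') :=
        (ContinuousOn.integrableOn_compact (isCompact_closedBall z r') (hcont.mono hcb)).mono_set
          Metric.ball_subset_closedBall
      exact setIntegral_mono_set hint (Eventually.of_forall fun x => by positivity)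
        hD'.eventuallyLE

end Vale.Agent.P088.R2.H935.Cv
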