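import Vale.Agent.P088.R2.H935.S.Conv

/-!
# P088, stage 3: `RowCORE3 → Core3E`
-/

open MeasureTheory Set
open scoped ContDiff Matrix

noncomputable section

namespace Vale.Agent.P088.R2.H935.Cv

open Vale.Agent.P088.LR

variable {n : ℕ}

theorem pd_sum_mul {a b : Fin n → V n → ℝ} {y : V n} (ha : ∀ k, DifferentiableAt ℝ (a k) y)
    (hb : ∀ k, DifferentiableAt ℝ (b k) y) (j : Fin n) :
    pd j (fun y => ∑ k, a k y * b k y) y = ∑ k, (a k y * pd j (b k) y + b k y * pd j (a k) y) := by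
  have h : HasFDerivAt (fun y => ∑ k, a k y * b k y)
      (∑ k, (a k y • fderiv ℝ (b k) y + b k y • fderiv ℝ (a k) y)) y :=
    HasFDerivAt.fun_sum fun k _ => (ha k).hasFDerivAt.mul (hb k).hasFDerivAt
  unfold pd
  rw [h.fderiv]
  simp only [_root_.sum_apply, _root_.add_apply, _root_.smul_apply, smul_eq_mul]

theorem LE_A {s : EE n → Matrix (Fin n) (Fin n) ℝ} {D : Set (EE n)} (hD : IsOpen D)
    (hs : ∀ i j, ContDiffOn ℝ ∞ (fun x => s x i j) D)
    (hd : ∀ x ∈ D, ∀ j, ∑ i, pe i (fun y => s y i j) x = 0) (z : EE n) {f : EE n → ℝ}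
    (hf : ContDiff ℝ ∞ f) {y : V n} (hy : A z y ∈ D) :
    LE s f (A z y) = HY.Lv (fun y => s (A z y)) (fun y => f (A z y)) y := by
  have hg : ContDiff ℝ ∞ (fun y => f (A z y)) := hf.comp (A_sm z)
  have hg1 : ∀ k, ContDiff ℝ ∞ (pd k (fun y => f (A z y))) := fun k =>
    (hg.fderiv_right (by simp)).clm_apply contDiff_const
  have hsd : ∀ i j, DifferentiableAt ℝ (fun y => s (A z y) i j) y := fun i j => by
    have h1 : ContDiffAt ℝ ∞ (fun x => s x i j) (A z y) := (hs i j).contDiffAt (hD.mem_nhds hy)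
    exact (h1.differentiableAt (by simp)).comp y ((A_sm z (m := 1)).differentiable (by simp) y)
  unfold LE
  have h1 : ∀ j, pe j (fun x => ∑ k, s x j k * pe k f x) (A z y) =
      ∑ k, (s (A z y) j k * pd j (pd k (fun y => f (A z y))) y +
        pd k (fun y => f (A z y)) y * pd j (fun y => s (A z y) j k) y) := by
    intro j
    rw [← pd_A]
    have h2 : (fun y => ∑ k, s (A z y) j k * pe k f (A z y)) =
        fun y => ∑ k, s (A z y) j k * pd k (fun y => f (A z y)) y := by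
      funext y
      exact Finset.sum_congr rfl fun k _ => by rw [pd_A]
    rw [h2, pd_sum_mul (a := fun k y => s (A z y) j k) (b := fun k => pd k (fun y => f (A z y)))
      (fun k => hsd j k) fun k => (hg1 k).differentiable (by simp) y]
  simp only [h1, Finset.sum_add_distrib]
  have h3 : ∑ j, ∑ k, pd k (fun y => f (A z y)) y * pd j (fun y => s (A z y) j k) y = 0 := by
    rw [Finset.sum_comm]
    refine Finset.sum_eq_zero fun k _ => ?_
    rw [← Finset.mul_sum]
    have h4 : ∑ j, pd j (fun y => s (A z y) j k) y = 0 := by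
      have h5 := hd (A z y) hy k
      rw [← h5]
      exact Finset.sum_congr rfl fun j _ => pd_A z (fun x => s x j k) j y
    rw [h4, mul_zero]
  rw [h3, add_zero]
  rfl

/-- The transfer on `V n` from the transfer on the Euclidean space. -/
theorem stp_of {D G : Set (EE n)} {s₁ s₂ : EE n → Matrix (Fin n) (Fin n) ℝ} (hD : IsOpen D)
    (hG : IsOpen G) (hs : ∀ i j, ContDiffOn ℝ ∞ (fun x => s₁ x i j) D)
    (hd : ∀ x ∈ D, ∀ j, ∑ i, pe i (fun y => s₁ y i j) x = 0) (h : StpE D G s₁ s₂) (z : EE n) :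
    HY.T3.Stp (A z ⁻¹' D) (A z ⁻¹' G) (fun y => s₁ (A z y)) (fun y => s₂ (A z y)) := by
  obtain ⟨C₀, hC₀, h⟩ := h
  refine ⟨C₀, hC₀, ?_⟩
  intro d f h₁ h₂ hf1 hf2 hf3 ha1 ha2 ha3 hb1 hb2 hb3 heq ε hε
  have ts : ∀ F : V n → ℝ, tsupport (fun x => F (B z x)) = B z ⁻¹' tsupport F := fun F =>
    tsupport_comp_eq_preimage F (Ah z).symm
  have cs : ∀ F : V n → ℝ, HasCompactSupport F → HasCompactSupport fun x => F (B z x) :=
    fun F hF => hF.comp_homeomorph (Ah z).symm
  have sub : ∀ (F : V n → ℝ) (S : Set (EE n)), tsupport F ⊆ A z ⁻¹' S →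
      tsupport (fun x => F (B z x)) ⊆ S := by
    intro F S hF x hx
    rw [ts] at hx
    have := hF hx
    rwa [mem_preimage, A_B] at this
  have hAB : ∀ F : V n → ℝ, (fun y => F (B z (A z y))) = F := fun F => by
    funext y
    rw [B_A]
  obtain ⟨w, dv, c1, c2, c3, c4, c5, c6, c7⟩ := h d (fun q x => f q (B z x))
    (fun q x => h₁ q (B z x)) (fun q x => h₂ q (B z x)) (fun q => (hf1 q).comp (B_sm z))
    (fun q => cs _ (hf2 q)) (fun q => sub _ _ (hf3 q)) (fun q => (ha1 q).comp (B_sm z))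
    (fun q => cs _ (ha2 q)) (fun q => sub _ (G ∩ D) (ha3 q)) (fun q => (hb1 q).comp (B_sm z))
    (fun q => cs _ (hb2 q)) (fun q => sub _ _ (hb3 q)) (fun q x hx => by
      have h1 := LE_A hD hs hd z (f := fun x => f q (B z x)) ((hf1 q).comp (B_sm z))
        (y := B z x) (by rw [A_B]; exact hx)
      rw [A_B] at h1
      rw [h1]
      simp only [hAB]
      exact heq q (B z x) (by rw [mem_preimage, A_B]; exact hx)) ε hε
  have hpw : ∀ q i, pd i (fun y => w q (A z y)) = fun y => pe i (w q) (A z y) := fun q i =>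
    funext fun y => pd_A z (w q) i y
  have hpf : ∀ q i (y : V n), pe i (fun x => f q (B z x)) (A z y) = pd i (f q) y := by
    intro q i y
    rw [pe_B, B_A]
  refine ⟨fun q y => w q (A z y), fun q i y => dv q i (A z y), fun q => ?_, fun q y hy => ?_,
    fun q => ?_, fun q i => ?_, fun q i => ?_, fun q φ hφ1 hφ2 hφ3 => ?_, fun c => ?_⟩
  · exact (c1 q).comp (A_sm z).contDiffOn fun y hy => hy
  · exact c2 q (A z y) hy
  · exact mem_A hD.measurableSet (c3 q)
  · rw [hpw]
    exact mem_A hD.measurableSet (c4 q i)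
  · exact mem_A (hD.measurableSet.diff hG.measurableSet) (c5 q i)
  · have h1 := c6 q (fun x => φ (B z x)) (hφ1.comp (B_sm z)) (cs _ hφ2) (sub _ _ hφ3)
    rw [← int_A z D, ← int_A z (D \ G)] at h1
    simp only [pe_B, B_A] at h1
    simp only [hpw]
    exact h1
  · obtain ⟨h1, h2⟩ := c7 c
    rw [← int_A z D, ← int_A z (D \ G)] at h1
    rw [← int_A z D, ← int_A z D, ← int_A z (D \ G)] at h2
    simp only [pe_B, B_A] at h1 h2
    simp only [hpw]
    exact ⟨h1, h2⟩

theorem core3E (hC : HY.T3.RowCORE3) : Core3E := by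
  intro n hn s₁ s₂ z a R r G hR hr har hG hb hs1 hs2 hp1 hp2 hd1 hd2 heq hst
  have hO : IsOpen (Metric.ball z R) := Metric.isOpen_ball
  have hE : A z ⁻¹' Metric.ball z R = HY.T3.Eb 0 R := by rw [pre_ball z z hR, B_self]
  have hra : HY.sq (B z a) = r ^ 2 := by
    rw [← har, dist_eq_norm, ← nrm_toLp]
    rfl
  have hst' := stp_of hO hG hs1 hd1 hst z
  rw [hE] at hst'
  have hm : ∀ y ∈ HY.T3.Eb (0 : V n) R, A z y ∈ Metric.ball z R := fun y hy => by
    rw [← hE] at hy
    exact hy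
  obtain ⟨δ, hδ, h⟩ := hC n hn (fun y => s₁ (A z y)) (fun y => s₂ (A z y)) R r (B z a)
    (A z ⁻¹' G) hR hr hra (hG.preimage (A_sm z (m := 0)).continuous) (by
      rintro y ⟨hy1, hy2⟩
      refine hb ⟨?_, hm y hy2⟩
      have : y ∈ A z ⁻¹' Metric.ball a r := by rw [pre_ball z a hr]; exact hy1
      exact this)
    (fun i j => (hs1 i j).comp (A_sm z).contDiffOn fun y hy => hm y hy)
    (fun i j => (hs2 i j).comp (A_sm z).contDiffOn fun y hy => hm y hy)
    (fun y hy => hp1 _ (hm y hy)) (fun y hy => hp2 _ (hm y hy))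
    (fun y hy j => by
      rw [← hd1 _ (hm y hy) j]
      exact Finset.sum_congr rfl fun i _ => pd_A z (fun x => s₁ x i j) i y)
    (fun y hy j => by
      rw [← hd2 _ (hm y hy) j]
      exact Finset.sum_congr rfl fun i _ => pd_A z (fun x => s₂ x i j) i y)
    (fun y hy => heq _ ⟨hy.1, hm y hy.2⟩) hst'
  refine ⟨δ, hδ, fun x hx => ?_⟩
  have h1 : B z x ∈ HY.T3.Eb (0 : V n) δ := by
    have h2 : B z x ∈ A z ⁻¹' Metric.ball z δ := by
      rw [mem_preimage, A_B]
      exact hx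
    rwa [pre_ball z z hδ, B_self] at h2
  have h3 := h _ h1
  simp only [A_B] at h3
  exact h3

end Vale.Agent.P088.R2.H935.Cv

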