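import Vale.Agent.P088.R2.H935.S.Conv2
import Vale.Agent.P088.Bdl.B12

/-!
# P088, stage 3: one-sided and two-sided derivatives
-/

open MeasureTheory Set Filter Topology
open scoped ContDiff Matrix

noncomputable section

namespace Vale.Agent.P088.R2.H935.Cv

open Vale.Agent.P088.EYM

variable {n : ℕ} [NeZero n]

/-- the open half space -/
def Ho (n : ℕ) [NeZero n] : Set (E n) := {x | 0 < x 0}

theorem isOpen_Ho : IsOpen (Ho n) := by
  have : Continuous fun x : E n => x 0 := by fun_prop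
  exact isOpen_lt continuous_const this

/-- one-sided and two-sided derivatives agree in the open half space -/
theorem pd_pe {f : E n → ℝ} {x : E n} (hx : x ∈ Ho n) (i : Fin n) :
    Vale.Agent.P088.EYM.pd i f x = pe i f x := by
  have h1 : Hs n ∈ 𝓝 x := Filter.mem_of_superset (isOpen_Ho.mem_nhds hx) fun y hy =>
    le_of_lt (show (0 : ℝ) < y 0 from hy)
  show fderivWithin ℝ f (Hs n) x _ = fderiv ℝ f x _
  rw [fderivWithin_of_mem_nhds h1]

omit [NeZero n] in
theorem pe_congr {f g : E n → ℝ} {x : E n} (h : f =ᶠ[𝓝 x] g) (i : Fin n) :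
    pe i f x = pe i g x := by
  unfold pe
  rw [h.fderiv_eq]

/-- the divergence form and the non divergence form -/
theorem LE_LvE {s : E n → Matrix (Fin n) (Fin n) ℝ} {D : Set (E n)} (hD : IsOpen D)
    (hDH : D ⊆ Ho n) (hs : ∀ i j, ContDiffOn ℝ ∞ (fun x => s x i j) D)
    (hd : ∀ x ∈ D, ∀ j, ∑ i, Vale.Agent.P088.EYM.pd i (fun y => s y i j) x = 0) {f : E n → ℝ}
    (hf : ContDiff ℝ ∞ f) {x : E n} (hx : x ∈ D) :
    ∑ i, ∑ j, s x i j * Vale.Agent.P088.EYM.pd i (Vale.Agent.P088.EYM.pd j f) x = LE s f x := by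
  have hd' : ∀ x ∈ D, ∀ j, ∑ i, pe i (fun y => s y i j) x = 0 := fun x hx j => by
    rw [← hd x hx j]
    exact Finset.sum_congr rfl fun i _ => (pd_pe (hDH hx) i).symm
  have h1 := LE_A hD hs hd' 0 hf (y := B 0 x) (by rw [A_B]; exact hx)
  rw [A_B] at h1
  rw [h1]
  unfold HY.Lv
  simp only [A_B]
  refine Finset.sum_congr rfl fun i _ => Finset.sum_congr rfl fun j _ => ?_
  congr 1
  rw [pd_pe (hDH hx)]
  have h2 : Vale.Agent.P088.EYM.pd j f =ᶠ[𝓝 x] pe j f := by
    filter_upwards [isOpen_Ho.mem_nhds (hDH hx)] with y hy using pd_pe hy j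
  rw [pe_congr h2]
  have h4 : LR.pd j (fun y => f (A 0 y)) = fun y => pe j f (A 0 y) := funext fun y => pd_A 0 f j y
  rw [h4, pd_A, A_B]

end Vale.Agent.P088.R2.H935.Cv
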