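import Vale.Agent.P088.R2.H935.S.Conv

/-!
# P088, stage 3: the Poincaré inequality on a ball for functions which vanish on a smaller ball
-/

open MeasureTheory Set Filter Topology
open scoped ContDiff Matrix Pointwise

noncomputable section

namespace Vale.Agent.P088.R2.H935.Cv

variable {n : ℕ}

/-- the derivative in terms of the partial derivatives -/
theorem fderiv_sum_pe (u : EE n → ℝ) (x v : EE n) :
    fderiv ℝ u x v = ∑ i, v i * pe i u x := by
  have h1 : v = ∑ i, v i • (EuclideanSpace.single i (1 : ℝ) : EE n) := by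
    ext j
    simp [Finset.sum_apply, Pi.single_apply]
  conv_lhs => rw [h1]
  rw [map_sum]
  exact Finset.sum_congr rfl fun i _ => by rw [map_smul]; rfl

/-- `|∇u|²` -/
def gr (u : EE n → ℝ) (x : EE n) : ℝ := ∑ i, pe i u x ^ 2

theorem gr_nn (u : EE n → ℝ) (x : EE n) : 0 ≤ gr u x := Finset.sum_nonneg fun _ _ => sq_nonneg _

theorem fderiv_sq_le (u : EE n → ℝ) (x v : EE n) :
    (fderiv ℝ u x v) ^ 2 ≤ ‖v‖ ^ 2 * gr u x := by
  rw [fderiv_sum_pe, EuclideanSpace.norm_sq_eq]
  refine (Finset.sum_mul_sq_le_sq_mul_sq _ _ _).trans (le_of_eq ?_)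
  unfold gr
  congr 1
  exact Finset.sum_congr rfl fun i _ => by rw [Real.norm_eq_abs, sq_abs]

theorem gr_cont {u : EE n → ℝ} {D : Set (EE n)} (hD : IsOpen D) (hu : ContDiffOn ℝ 1 u D) :
    ContinuousOn (gr u) D := by
  unfold gr
  refine continuousOn_finsetSum _ fun i _ => ContinuousOn.pow ?_ 2
  have h1 := hu.continuousOn_fderiv_of_isOpen hD (by norm_num)
  exact h1.clm_apply continuousOn_const

/-- Cauchy-Schwarz on an interval. -/
theorem sq_int_le {f : ℝ → ℝ} {a b : ℝ} (hab : a < b) (hba : b - a ≤ 1)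
    (hf : ContinuousOn f (Icc a b)) : (∫ s in a..b, f s) ^ 2 ≤ ∫ s in a..b, f s ^ 2 := by
  have i1 : IntervalIntegrable f volume a b :=
    (hf.mono (by rw [uIcc_of_le hab.le])).intervalIntegrable
  have i2 : IntervalIntegrable (fun s => f s ^ 2) volume a b :=
    ((hf.pow 2).mono (by rw [uIcc_of_le hab.le])).intervalIntegrable
  set I := ∫ s in a..b, f s with hI
  have h0 : 0 ≤ ∫ s in a..b, (f s - I / (b - a)) ^ 2 :=
    intervalIntegral.integral_nonneg hab.le fun s _ => sq_nonneg _
  have h1 : ∫ s in a..b, (f s - I / (b - a)) ^ 2 =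
      (∫ s in a..b, f s ^ 2) - 2 * (I / (b - a)) * I + (I / (b - a)) ^ 2 * (b - a) := by
    have e : (fun s => (f s - I / (b - a)) ^ 2) = fun s =>
        (f s ^ 2 - 2 * (I / (b - a)) * f s) + (I / (b - a)) ^ 2 := by
      funext s
      ring
    rw [e, intervalIntegral.integral_add (i2.sub (i1.const_mul _)) intervalIntegrable_const,
      intervalIntegral.integral_sub i2 (i1.const_mul _), intervalIntegral.integral_const_mul,
      intervalIntegral.integral_const]
    simp only [smul_eq_mul]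
    ring
  rw [h1] at h0
  have hp : 0 < b - a := by linarith
  have h2 : 2 * (I / (b - a)) * I - (I / (b - a)) ^ 2 * (b - a) = I ^ 2 / (b - a) := by
    field_simp
    ring
  have h3 : I ^ 2 / (b - a) ≤ ∫ s in a..b, f s ^ 2 := by linarith
  have h4 : I ^ 2 ≤ I ^ 2 / (b - a) := by
    rw [le_div_iff₀ hp]
    nlinarith [sq_nonneg I]
  exact h4.trans h3

/-- The pointwise bound on rays. -/
theorem ray {D : Set (EE n)} (hD : IsOpen D) {u : EE n → ℝ} (hu : ContDiffOn ℝ 1 u D) {κ : ℝ}
    (hκ : 0 < κ) (hκ1 : κ < 1) {x : EE n} (hx : ∀ s ∈ Icc κ 1, s • x ∈ D) (h0 : u (κ • x) = 0) :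
    u x ^ 2 ≤ ‖x‖ ^ 2 * ∫ s in κ..1, gr u (s • x) := by
  have hcs : Continuous fun s : ℝ => s • x := continuous_id.smul continuous_const
  have hfc : ContinuousOn (fun s : ℝ => fderiv ℝ u (s • x) x) (Icc κ 1) := by
    have h1 := hu.continuousOn_fderiv_of_isOpen hD (by norm_num)
    exact (h1.comp hcs.continuousOn fun s hs => hx s hs).clm_apply continuousOn_const
  have hgc : ContinuousOn (fun s : ℝ => gr u (s • x)) (Icc κ 1) :=
    (gr_cont hD hu).comp hcs.continuousOn fun s hs => hx s hs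
  have h1 : ∫ s in κ..1, fderiv ℝ u (s • x) x = u ((1 : ℝ) • x) - u (κ • x) := by
    refine intervalIntegral.integral_eq_sub_of_hasDerivAt (f := fun s : ℝ => u (s • x)) ?_
      (hfc.mono (by rw [uIcc_of_le hκ1.le])).intervalIntegrable
    intro s hs
    rw [uIcc_of_le hκ1.le] at hs
    have h2 : HasFDerivAt u (fderiv ℝ u (s • x)) (s • x) :=
      ((hu.contDiffAt (hD.mem_nhds (hx s hs))).differentiableAt (by norm_num)).hasFDerivAt
    have h3 : HasDerivAt (fun s : ℝ => s • x) ((1 : ℝ) • x) s := (hasDerivAt_id s).smul_const x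
    have h4 := h2.comp_hasDerivAt s h3
    rwa [one_smul] at h4
  rw [one_smul, h0, sub_zero] at h1
  rw [← h1]
  refine (sq_int_le hκ1 (by linarith) hfc).trans ?_
  rw [← intervalIntegral.integral_const_mul]
  refine intervalIntegral.integral_mono_on hκ1.le
    ((hfc.pow 2).mono (by rw [uIcc_of_le hκ1.le])).intervalIntegrable
    ((continuousOn_const.mul hgc).mono (by rw [uIcc_of_le hκ1.le])).intervalIntegrable ?_
  intro s _
  exact fderiv_sq_le u _ _

/-- The Poincaré inequality, the small ball is about `0`. -/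
theorem poinc0 (z : EE n) {r rr ρ : ℝ} (hr : r < rr) (hρ : 0 < ρ)
    (hB : Metric.ball (0 : EE n) ρ ⊆ Metric.ball z r) :
    ∃ C : ℝ, 0 ≤ C ∧ ∀ u : EE n → ℝ, ContDiffOn ℝ 1 u (Metric.ball z rr) →
      (∀ x ∈ Metric.ball (0 : EE n) ρ, u x = 0) →
      ∫ x in Metric.ball z r, u x ^ 2 ≤ C * ∫ x in Metric.ball z r, gr u x := by
  have hr0 : 0 < r := by
    have h1 := hB (Metric.mem_ball_self hρ)
    exact dist_nonneg.trans_lt h1
  set R : ℝ := ‖z‖ + r with hR
  have hRp : 0 < R := by positivity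
  set κ : ℝ := ρ / (R + ρ) with hκd
  have hκ : 0 < κ := by positivity
  have hκ1 : κ < 1 := by
    rw [hκd, div_lt_one (by positivity)]
    linarith
  set D : Set (EE n) := Metric.ball z r with hDd
  have hDo : IsOpen D := Metric.isOpen_ball
  have hDm : MeasurableSet D := hDo.measurableSet
  have hnx : ∀ x ∈ D, ‖x‖ ≤ R := by
    intro x hx
    have h1 : dist x z < r := hx
    rw [dist_eq_norm] at h1
    have h2 : ‖x‖ ≤ ‖x - z‖ + ‖z‖ := by simpa using norm_add_le (x - z) z
    linarith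
  have hsm : ∀ x ∈ D, ∀ s ∈ Icc κ 1, s • x ∈ D := by
    intro x hx s hs
    have h0 : (0 : EE n) ∈ D := hB (Metric.mem_ball_self hρ)
    have hc : Convex ℝ D := convex_ball z r
    have h1 := hc h0 hx (a := 1 - s) (b := s) (by linarith [hs.2]) (hκ.le.trans hs.1) (by ring)
    simpa using h1
  refine ⟨R ^ 2 * (κ ^ n)⁻¹, by positivity, ?_⟩
  intro u hu h0
  have hDD : Metric.closedBall z r ⊆ Metric.ball z rr := Metric.closedBall_subset_ball hr
  have hgc : ContinuousOn (gr u) (Metric.ball z rr) := gr_cont Metric.isOpen_ball hu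
  have hDD' : D ⊆ Metric.ball z rr := Metric.ball_subset_closedBall.trans hDD
  obtain ⟨M, hM⟩ := (isCompact_closedBall z r).exists_bound_of_continuousOn (hgc.mono hDD)
  have hMD : ∀ x ∈ D, |gr u x| ≤ M := fun x hx => hM x (Metric.ball_subset_closedBall hx)
  have hDfin : volume D < ⊤ := measure_ball_lt_top
  have hfD : IsFiniteMeasure (volume.restrict D) :=
    ⟨by rw [Measure.restrict_apply_univ]; exact hDfin⟩
  have hgi : IntegrableOn (gr u) D := by
    refine Integrable.of_bound ((hgc.mono hDD').aestronglyMeasurable hDm) M ?_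
    filter_upwards [ae_restrict_mem hDm] with x hx using hMD x hx
  have hui : IntegrableOn (fun x => u x ^ 2) D := by
    obtain ⟨M', hM'⟩ := (isCompact_closedBall z r).exists_bound_of_continuousOn
      ((hu.continuousOn.pow 2).mono hDD)
    refine Integrable.of_bound (((hu.continuousOn.pow 2).mono hDD').aestronglyMeasurable hDm) M' ?_
    filter_upwards [ae_restrict_mem hDm] with x hx using hM' x (Metric.ball_subset_closedBall hx)
  -- the function on the product
  set I : Set ℝ := Ioc κ 1 with hI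
  have hIm : MeasurableSet I := measurableSet_Ioc
  have hcont : ContinuousOn (fun q : EE n × ℝ => gr u (q.2 • q.1)) (D ×ˢ I) := by
    refine hgc.comp (by fun_prop) ?_
    rintro ⟨x, s⟩ ⟨hx, hs⟩
    exact hDD' (hsm x hx s ⟨hs.1.le, hs.2⟩)
  have hint : Integrable (fun q : EE n × ℝ => gr u (q.2 • q.1))
      ((volume.restrict D).prod (volume.restrict I)) := by
    have hfI : IsFiniteMeasure (volume.restrict I) :=
      ⟨by rw [Measure.restrict_apply_univ]; exact measure_Ioc_lt_top⟩
    refine Integrable.of_bound ?_ M ?_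
    · rw [Measure.prod_restrict]
      exact hcont.aestronglyMeasurable (hDm.prod hIm)
    · rw [Measure.prod_restrict]
      filter_upwards [ae_restrict_mem (hDm.prod hIm)] with q hq
      exact hMD _ (hsm q.1 hq.1 q.2 ⟨hq.2.1.le, hq.2.2⟩)
  have hstep : ∀ x ∈ D, u x ^ 2 ≤ R ^ 2 * ∫ s in I, gr u (s • x) := by
    intro x hx
    have h1 := ray (D := Metric.ball z rr) Metric.isOpen_ball hu hκ hκ1 (x := x)
      (fun s hs => hDD' (hsm x hx s hs)) (h0 _ (by
        rw [mem_ball_zero_iff, norm_smul, Real.norm_eq_abs, abs_of_pos hκ]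
        have h2 := hnx x hx
        calc κ * ‖x‖ ≤ κ * R := by gcongr
          _ < ρ := by
            rw [hκd, div_mul_eq_mul_div, div_lt_iff₀ (by positivity)]
            nlinarith))
    rw [intervalIntegral.integral_of_le hκ1.le] at h1
    refine h1.trans ?_
    have h3 : 0 ≤ ∫ s in I, gr u (s • x) := integral_nonneg fun s => gr_nn u _
    have h4 := hnx x hx
    gcongr
  have hin : ∀ s ∈ I, ∫ x in D, gr u (s • x) ≤ (κ ^ n)⁻¹ * ∫ x in D, gr u x := by
    intro s hs
    have hs0 : 0 < s := hκ.trans hs.1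
    have h1 := Measure.setIntegral_comp_smul (volume : Measure (EE n)) (gr u) D hs0.ne'
    rw [h1]
    have h2 : Module.finrank ℝ (EE n) = n := by simp
    rw [h2, smul_eq_mul, abs_of_pos (by positivity)]
    have h3 : s • D ⊆ D := by
      rintro _ ⟨x, hx, rfl⟩
      exact hsm x hx s ⟨hs.1.le, hs.2⟩
    have h4 : ∫ x in s • D, gr u x ≤ ∫ x in D, gr u x :=
      setIntegral_mono_set hgi (Eventually.of_forall fun x => gr_nn u x) h3.eventuallyLE
    have h5 : (s ^ n)⁻¹ ≤ (κ ^ n)⁻¹ := by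
      have := hs.1.le
      gcongr
    have h6 : 0 ≤ ∫ x in s • D, gr u x := integral_nonneg fun x => gr_nn u x
    have h7 : 0 ≤ (κ ^ n)⁻¹ := by positivity
    calc (s ^ n)⁻¹ * ∫ x in s • D, gr u x ≤ (κ ^ n)⁻¹ * ∫ x in s • D, gr u x := by gcongr
      _ ≤ (κ ^ n)⁻¹ * ∫ x in D, gr u x := by gcongr
  have hG0 : 0 ≤ ∫ x in D, gr u x := integral_nonneg fun x => gr_nn u x
  calc ∫ x in D, u x ^ 2 ≤ ∫ x in D, R ^ 2 * ∫ s in I, gr u (s • x) := by
        refine setIntegral_mono_on hui ?_ hDm hstep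
        exact (hint.integral_prod_left).const_mul _
    _ = R ^ 2 * ∫ x in D, ∫ s in I, gr u (s • x) := by rw [integral_const_mul]
    _ = R ^ 2 * ∫ s in I, ∫ x in D, gr u (s • x) := by
        rw [integral_integral_swap hint]
    _ ≤ R ^ 2 * ∫ s in I, (κ ^ n)⁻¹ * ∫ x in D, gr u x := by
        have h1 : ∫ s in I, ∫ x in D, gr u (s • x) ≤ ∫ s in I, (κ ^ n)⁻¹ * ∫ x in D, gr u x := by
          refine setIntegral_mono_on ?_ ?_ hIm hin
          · exact hint.integral_prod_right
          · exact integrableOn_const (by rw [hI]; exact measure_Ioc_lt_top.ne)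
        gcongr
    _ ≤ R ^ 2 * ((κ ^ n)⁻¹ * ∫ x in D, gr u x) := by
        have h1 : ∫ s in I, (κ ^ n)⁻¹ * ∫ x in D, gr u x =
            (1 - κ) * ((κ ^ n)⁻¹ * ∫ x in D, gr u x) := by
          rw [setIntegral_const, measureReal_def, hI, Real.volume_Ioc,
            ENNReal.toReal_ofReal (by linarith), smul_eq_mul]
        rw [h1]
        have h2 : 0 ≤ (κ ^ n)⁻¹ * ∫ x in D, gr u x := by positivity
        have h3 : (1 - κ) * ((κ ^ n)⁻¹ * ∫ x in D, gr u x) ≤ (κ ^ n)⁻¹ * ∫ x in D, gr u x := by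
          nlinarith
        gcongr
    _ = R ^ 2 * (κ ^ n)⁻¹ * ∫ x in D, gr u x := by ring

theorem pre_add (c z : EE n) (ρ : ℝ) :
    (fun x : EE n => x + c) ⁻¹' Metric.ball z ρ = Metric.ball (z - c) ρ := by
  ext x
  simp only [mem_preimage, Metric.mem_ball, dist_eq_norm]
  rw [show x + c - z = x - (z - c) by abel]

theorem int_add (c z : EE n) (ρ : ℝ) (F : EE n → ℝ) :
    ∫ x in Metric.ball (z - c) ρ, F (x + c) = ∫ x in Metric.ball z ρ, F x := by
  rw [← pre_add]
  exact (measurePreserving_add_right (volume : Measure (EE n)) c).setIntegral_preimage_emb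
    (measurableEmbedding_addRight c) F _

/-- **The Poincaré inequality** on a ball for functions which vanish on a smaller ball. -/
theorem poinc (z c : EE n) {r rr ρ : ℝ} (hr : r < rr) (hρ : 0 < ρ)
    (hB : Metric.ball c ρ ⊆ Metric.ball z r) :
    ∃ C : ℝ, 0 ≤ C ∧ ∀ u : EE n → ℝ, ContDiffOn ℝ 1 u (Metric.ball z rr) →
      (∀ x ∈ Metric.ball c ρ, u x = 0) →
      ∫ x in Metric.ball z r, u x ^ 2 ≤ C * ∫ x in Metric.ball z r, ∑ i, pe i u x ^ 2 := by
  have hB' : Metric.ball (0 : EE n) ρ ⊆ Metric.ball (z - c) r := by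
    rw [← sub_self c, ← pre_add, ← pre_add]
    exact preimage_mono hB
  obtain ⟨C, hC, h⟩ := poinc0 (z - c) hr hρ hB'
  refine ⟨C, hC, fun u hu h0 => ?_⟩
  have h1 := h (fun x => u (x + c)) (by
    refine hu.comp (contDiff_id.add contDiff_const).contDiffOn ?_
    rw [← pre_add]
    exact fun x hx => hx) (fun x hx => by
      refine h0 _ ?_
      have h2 : x ∈ (fun x : EE n => x + c) ⁻¹' Metric.ball c ρ := by
        rw [pre_add, sub_self]
        exact hx
      exact h2)
  have h3 : ∀ x, gr (fun x => u (x + c)) x = (fun x => ∑ i, pe i u x ^ 2) (x + c) := by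
    intro x
    unfold gr pe
    simp only [fderiv_comp_add_right]
  simp only [h3] at h1
  rw [int_add c z r (fun x => ∑ i, pe i u x ^ 2)] at h1
  have h4 := int_add c z r (fun x => u x ^ 2)
  rw [h4] at h1
  exact h1

end Vale.Agent.P088.R2.H935.Cv

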