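import Vale.Agent.P088.R2.H935.S.Poinc

/-!
# P088, stage 3: the weak equation of the transfer
-/

open MeasureTheory Set Filter Topology
open scoped ContDiff Matrix

noncomputable section

namespace Vale.Agent.P088.R2.H935.Cv

variable {n : ℕ} {D : Set (EE n)}

/-- Products of a continuous function on `D` with a function supported in a compact subset. -/
theorem int_cs (hD : IsOpen D) {g ψ : EE n → ℝ} {K : Set (EE n)} (hK : IsCompact K) (hKD : K ⊆ D)
    (hg : ContinuousOn g D) (hψ : Continuous ψ) (h0 : ∀ x ∉ K, ψ x = 0) :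
    IntegrableOn (fun x => g x * ψ x) D := by
  have h1 : IntegrableOn (fun x => g x * ψ x) K :=
    ContinuousOn.integrableOn_compact hK ((hg.mono hKD).mul hψ.continuousOn)
  apply h1.of_forall_sdiff_eq_zero hD.measurableSet
  intro x hx
  rw [h0 x hx.2, mul_zero]

theorem pe_off {φ : EE n → ℝ} {x : EE n} (hx : x ∉ tsupport φ) (j : Fin n) : pe j φ x = 0 := by
  have h1 : φ =ᶠ[𝓝 x] fun _ => (0 : ℝ) := by
    filter_upwards [(isClosed_tsupport φ).isOpen_compl.mem_nhds hx] with y hy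
    exact image_eq_zero_of_notMem_tsupport hy
  unfold pe
  rw [h1.fderiv_eq]
  simp

theorem pe_cont {φ : EE n → ℝ} (hφ : ContDiff ℝ ∞ φ) (j : Fin n) : Continuous (pe j φ) :=
  ((hφ.fderiv_right (m := 0) (by norm_num)).clm_apply contDiff_const).continuous

theorem pe_smo {D : Set (EE n)} (hD : IsOpen D) {f : EE n → ℝ} (hf : ContDiffOn ℝ ∞ f D)
    (j : Fin n) : ContDiffOn ℝ ∞ (pe j f) D := by
  have h1 := hf.fderiv_of_isOpen hD (m := ∞) (by simp)
  exact h1.clm_apply contDiffOn_const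

/-- The product of a smooth function on `D` and a test function in `D`. -/
theorem ext0 (hD : IsOpen D) {F φ : EE n → ℝ} (hF : ContDiffOn ℝ ∞ F D) (hφ : ContDiff ℝ ∞ φ)
    (hs : tsupport φ ⊆ D) : ContDiff ℝ ∞ fun x => F x * φ x := by
  rw [contDiff_iff_contDiffAt]
  intro x
  by_cases hx : x ∈ tsupport φ
  · exact (hF.contDiffAt (hD.mem_nhds (hs hx))).mul hφ.contDiffAt
  · have h1 : (fun x => F x * φ x) =ᶠ[𝓝 x] fun _ => (0 : ℝ) := by
      filter_upwards [(isClosed_tsupport φ).isOpen_compl.mem_nhds hx] with y hy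
      rw [image_eq_zero_of_notMem_tsupport hy, mul_zero]
    exact contDiffAt_const.congr_of_eventuallyEq h1

theorem int_pe {G : EE n → ℝ} (hG : ContDiff ℝ ∞ G) (hc : HasCompactSupport G) (j : Fin n) :
    ∫ x, pe j G x = 0 := by
  have hcs : HasCompactSupport (pe j G) := hc.fderiv_apply ℝ (EuclideanSpace.single j 1)
  have hint : Integrable (pe j G) := (pe_cont hG j).integrable_of_hasCompactSupport hcs
  have hintG : Integrable G := hG.continuous.integrable_of_hasCompactSupport hc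
  have h1 := integral_mul_fderiv_eq_neg_fderiv_mul_of_integrable (μ := (volume : Measure (EE n)))
    (f := fun _ : EE n => (1 : ℝ)) (g := G) (v := EuclideanSpace.single j 1) (by simp)
    (by
      simp only [one_mul]
      exact hint) (by
      simp only [one_mul]
      exact hintG) (fun x _ => differentiableAt_const _)
    (fun x _ => (hG.differentiable (by simp)) x)
  simp only [one_mul, fderiv_fun_const, Pi.zero_apply, zero_apply, zero_mul, integral_zero,
    neg_zero] at h1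
  exact h1

theorem pe_mul {f g : EE n → ℝ} {x : EE n} (hf : DifferentiableAt ℝ f x)
    (hg : DifferentiableAt ℝ g x) (j : Fin n) :
    pe j (fun y => f y * g y) x = f x * pe j g x + g x * pe j f x := by
  unfold pe
  have h : HasFDerivAt (fun y => f y * g y) (f x • fderiv ℝ g x + g x • fderiv ℝ f x) x :=
    hf.hasFDerivAt.mul hg.hasFDerivAt
  rw [h.fderiv]
  simp only [_root_.add_apply, _root_.smul_apply, smul_eq_mul]

theorem pe_add {f g : EE n → ℝ} {x : EE n} (hf : DifferentiableAt ℝ f x)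
    (hg : DifferentiableAt ℝ g x) (j : Fin n) :
    pe j (fun y => f y + g y) x = pe j f x + pe j g x := by
  unfold pe
  have h : HasFDerivAt (fun y => f y + g y) (fderiv ℝ f x + fderiv ℝ g x) x :=
    hf.hasFDerivAt.add hg.hasFDerivAt
  rw [h.fderiv]
  simp only [_root_.add_apply]

/-- Integration by parts: a weak solution. -/
theorem weak_LE (hD : IsOpen D) {s : EE n → Matrix (Fin n) (Fin n) ℝ}
    (hs : ∀ i j, ContDiffOn ℝ ∞ (fun x => s x i j) D) {f : EE n → ℝ} (hf : ContDiffOn ℝ ∞ f D)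
    (h : ∀ x ∈ D, LE s f x = 0) {φ : EE n → ℝ} (hφ : ContDiff ℝ ∞ φ) (hc : HasCompactSupport φ)
    (hsu : tsupport φ ⊆ D) :
    ∫ x in D, ∑ j, (∑ k, s x j k * pe k f x) * pe j φ x = 0 := by
  have hF : ∀ j, ContDiffOn ℝ ∞ (fun x => ∑ k, s x j k * pe k f x) D := fun j =>
    ContDiffOn.sum fun k _ => (hs j k).mul (pe_smo hD hf k)
  have hG : ∀ j, ContDiff ℝ ∞ (fun x => (∑ k, s x j k * pe k f x) * φ x) := fun j =>
    ext0 hD (hF j) hφ hsu
  have hGc : ∀ j, HasCompactSupport (fun x => (∑ k, s x j k * pe k f x) * φ x) := fun j =>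
    hc.mul_left
  have e1 : ∫ x in D, ∑ j, (∑ k, s x j k * pe k f x) * pe j φ x =
      ∫ x in D, ∑ j, pe j (fun x => (∑ k, s x j k * pe k f x) * φ x) x := by
    refine setIntegral_congr_fun hD.measurableSet fun x hx => ?_
    have h1 : ∀ j, pe j (fun x => (∑ k, s x j k * pe k f x) * φ x) x =
        (∑ k, s x j k * pe k f x) * pe j φ x + φ x * pe j (fun x => ∑ k, s x j k * pe k f x) x :=
      fun j => pe_mul (((hF j).contDiffAt (hD.mem_nhds hx)).differentiableAt (by simp))
        (hφ.differentiable (by simp) x) j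
    simp only [h1, Finset.sum_add_distrib, ← Finset.mul_sum]
    have h2 : ∑ j, pe j (fun x => ∑ k, s x j k * pe k f x) x = 0 := h x hx
    rw [h2, mul_zero, add_zero]
  have e2 : ∫ x in D, ∑ j, pe j (fun x => (∑ k, s x j k * pe k f x) * φ x) x =
      ∫ x, ∑ j, pe j (fun x => (∑ k, s x j k * pe k f x) * φ x) x := by
    refine setIntegral_eq_integral_of_forall_compl_eq_zero fun x hx => ?_
    refine Finset.sum_eq_zero fun j _ => pe_off (fun hx' => hx (hsu ?_)) j
    exact (closure_mono (Function.support_subset_iff'.2 fun y hy => by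
      rw [Function.notMem_support.1 hy, mul_zero])) hx'
  rw [e1, e2, integral_finsetSum]
  · exact Finset.sum_eq_zero fun j _ => int_pe (hG j) (hGc j) j
  · intro j _
    exact (pe_cont (hG j) j).integrable_of_hasCompactSupport
      ((hGc j).fderiv_apply ℝ (EuclideanSpace.single j 1))

/-- **The weak equation** for the difference of two solutions. -/
theorem weak_eq {G : Set (EE n)} (hD : IsOpen D) (hG : IsOpen G)
    {s₁ s₂ : EE n → Matrix (Fin n) (Fin n) ℝ}
    (hs1 : ∀ i j, ContDiffOn ℝ ∞ (fun x => s₁ x i j) D)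
    (hs2 : ∀ i j, ContDiffOn ℝ ∞ (fun x => s₂ x i j) D)
    (hy1 : ∀ x ∈ D, (s₁ x).IsSymm) (hy2 : ∀ x ∈ D, (s₂ x).IsSymm)
    (he : ∀ x ∈ G ∩ D, s₂ x = s₁ x) {v w : EE n → ℝ} (hv : ContDiffOn ℝ ∞ v D)
    (hw : ContDiffOn ℝ ∞ w D) (h1 : ∀ x ∈ D, LE s₁ v x = 0)
    (h2 : ∀ x ∈ D, LE s₂ (fun y => v y + w y) x = 0) {φ : EE n → ℝ} (hφ : ContDiff ℝ ∞ φ)
    (hc : HasCompactSupport φ) (hsu : tsupport φ ⊆ D) :
    (∫ x in D, ∑ i, ∑ j, s₂ x i j * (pe i w x * pe j φ x)) =
      ∫ x in D \ G, ∑ i, ∑ j, (s₁ x i j - s₂ x i j) * (pe i v x * pe j φ x) := by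
  have a1 := weak_LE hD hs1 hv h1 hφ hc hsu
  have a2 := weak_LE hD hs2 (hv.add hw) h2 hφ hc hsu
  have hoff : ∀ j, ∀ x ∉ tsupport φ, pe j φ x = 0 := fun j x hx => pe_off hx j
  have ii : ∀ (s : EE n → Matrix (Fin n) (Fin n) ℝ) (f : EE n → ℝ),
      (∀ i j, ContDiffOn ℝ ∞ (fun x => s x i j) D) → ContDiffOn ℝ ∞ f D →
      IntegrableOn (fun x => ∑ j, (∑ k, s x j k * pe k f x) * pe j φ x) D := by
    intro s f hs hf
    refine integrable_finsetSum _ fun j _ => ?_
    exact int_cs hD hc.isCompact hsu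
      (ContDiffOn.sum fun k _ => (hs j k).mul (pe_smo hD hf k)).continuousOn (pe_cont hφ j)
      (hoff j)
  have key : ∀ x ∈ D, ∑ i, ∑ j, s₂ x i j * (pe i w x * pe j φ x) =
      (∑ j, (∑ k, s₂ x j k * pe k (fun y => v y + w y) x) * pe j φ x -
        ∑ j, (∑ k, s₁ x j k * pe k v x) * pe j φ x) +
        ∑ j, (∑ k, (s₁ x - s₂ x) j k * pe k v x) * pe j φ x := by
    intro x hx
    have hvd : DifferentiableAt ℝ v x :=
      (hv.contDiffAt (hD.mem_nhds hx)).differentiableAt (by simp)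
    have hwd : DifferentiableAt ℝ w x :=
      (hw.contDiffAt (hD.mem_nhds hx)).differentiableAt (by simp)
    rw [Finset.sum_comm, ← Finset.sum_sub_distrib, ← Finset.sum_add_distrib]
    refine Finset.sum_congr rfl fun j _ => ?_
    rw [← sub_mul, ← add_mul, ← Finset.sum_sub_distrib, ← Finset.sum_add_distrib, Finset.sum_mul]
    refine Finset.sum_congr rfl fun k _ => ?_
    have e := congrFun (congrFun (hy2 x hx) j) k
    rw [Matrix.transpose_apply] at e
    rw [pe_add hvd hwd, Matrix.sub_apply, e]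
    ring
  have i2 := ii s₂ _ hs2 (hv.add hw)
  have i1 := ii s₁ _ hs1 hv
  have i3 := ii (fun x => s₁ x - s₂ x) v (fun i j => (hs1 i j).sub (hs2 i j)) hv
  have e0 : ∫ x in D, ((∑ j, (∑ k, s₂ x j k * pe k (fun y => v y + w y) x) * pe j φ x -
      ∑ j, (∑ k, s₁ x j k * pe k v x) * pe j φ x) +
      ∑ j, (∑ k, (s₁ x - s₂ x) j k * pe k v x) * pe j φ x) =
      ∫ x in D, ∑ j, (∑ k, (s₁ x - s₂ x) j k * pe k v x) * pe j φ x := by
    rw [integral_add (f := fun x => ∑ j, (∑ k, s₂ x j k * pe k (fun y => v y + w y) x) * pe j φ x -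
      ∑ j, (∑ k, s₁ x j k * pe k v x) * pe j φ x)
      (g := fun x => ∑ j, (∑ k, (s₁ x - s₂ x) j k * pe k v x) * pe j φ x) (i2.sub i1) i3,
      integral_sub i2 i1, a1, a2, sub_zero, zero_add]
  rw [setIntegral_congr_fun hD.measurableSet key, e0]
  symm
  have e3 : (∫ x in D \ G, ∑ i, ∑ j, (s₁ x i j - s₂ x i j) * (pe i v x * pe j φ x)) =
      ∫ x in D \ G, ∑ j, (∑ k, (s₁ x - s₂ x) j k * pe k v x) * pe j φ x := by
    refine setIntegral_congr_fun (hD.measurableSet.diff hG.measurableSet) fun x hx => ?_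
    show ∑ i, ∑ j, (s₁ x i j - s₂ x i j) * (pe i v x * pe j φ x) =
      ∑ j, (∑ k, (s₁ x - s₂ x) j k * pe k v x) * pe j φ x
    rw [Finset.sum_comm]
    refine Finset.sum_congr rfl fun j _ => ?_
    rw [Finset.sum_mul]
    refine Finset.sum_congr rfl fun k _ => ?_
    have e := congrFun (congrFun (hy2 x hx.1) j) k
    have e' := congrFun (congrFun (hy1 x hx.1) j) k
    rw [Matrix.transpose_apply] at e e'
    rw [Matrix.sub_apply, e, e']
    ring
  rw [e3]
  refine setIntegral_eq_of_subset_of_forall_sdiff_eq_zero hD.measurableSet sdiff_subset ?_ |>.symm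
  rintro x ⟨hx, hx'⟩
  have hxG : x ∈ G := by
    by_contra h
    exact hx' ⟨hx, h⟩
  refine Finset.sum_eq_zero fun j _ => ?_
  have h0 : ∑ k, (s₁ x - s₂ x) j k * pe k v x = 0 := Finset.sum_eq_zero fun k _ => by
    rw [he x ⟨hxG, hx⟩]
    simp
  rw [h0, zero_mul]

end Vale.Agent.P088.R2.H935.Cv
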